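import Mathlib

/-!
# From one covering `X_M` to orthonormal `γ`-orbits (package LIFT-T5)

Abstract setting: a real vector space `V` (compactly supported classes on the infinite cyclic
covering), a symmetric bilinear form `Q`, an isometry `g` (the deck transformation), locality
(`Q x (g ^ k y) = 0` for almost all `k`), the `g`-invariant functional `Kap` (pairing with the
canonical class), and the wrapped forms `Q_M x y = ∑ₖ Q x (g ^ (M k) y)` (the intersection forms of
the finite cyclic coverings), assumed negative semidefinite with `Q_M x x = 0 → Kap x = 0` for all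
`M` divisible by `p`.
-/

namespace Vale.Agent.P267.H379

open Filter

section Abstract

variable {V : Type*} [AddCommGroup V] [Module ℝ V]

/-- The wrapped form `∑ₖ Q x (g ^ (M k) y)`. -/
noncomputable def wrapForm (Q : LinearMap.BilinForm ℝ V) (g : V ≃ₗ[ℝ] V) (M : ℕ) (x y : V) : ℝ :=
  ∑ᶠ k : ℤ, Q x ((g ^ ((M : ℤ) * k)) y)

/-- Locality of the form with respect to the deck transformation. -/
def Local (Q : LinearMap.BilinForm ℝ V) (g : V ≃ₗ[ℝ] V) : Prop :=
  ∀ x y, {k : ℤ | Q x ((g ^ k) y) ≠ 0}.Finite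

variable {Q : LinearMap.BilinForm ℝ V} {g : V ≃ₗ[ℝ] V}

theorem Local.wrap (h : Local Q g) {M : ℕ} (hM : 0 < M) (x y : V) :
    (Function.support fun k : ℤ => Q x ((g ^ ((M : ℤ) * k)) y)).Finite := by
  have h1 := h x y
  have hinj : Function.Injective fun k : ℤ => (M : ℤ) * k :=
    fun a b hab => by
      have : (M : ℤ) ≠ 0 := by exact_mod_cast hM.ne'
      exact mul_left_cancel₀ this hab
  exact (h1.preimage (hinj.injOn (s := _))).subset fun k hk => hk

theorem wrapForm_add_left (h : Local Q g) {M : ℕ} (hM : 0 < M) (x x' y : V) :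
    wrapForm Q g M (x + x') y = wrapForm Q g M x y + wrapForm Q g M x' y := by
  unfold wrapForm
  rw [← finsum_add_distrib (h.wrap hM x y) (h.wrap hM x' y)]
  exact finsum_congr fun k => by simp

theorem wrapForm_add_right (h : Local Q g) {M : ℕ} (hM : 0 < M) (x y y' : V) :
    wrapForm Q g M x (y + y') = wrapForm Q g M x y + wrapForm Q g M x y' := by
  unfold wrapForm
  rw [← finsum_add_distrib (h.wrap hM x y) (h.wrap hM x y')]
  exact finsum_congr fun k => by simp

theorem wrapForm_smul_left (M : ℕ) (c : ℝ) (x y : V) :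
    wrapForm Q g M (c • x) y = c * wrapForm Q g M x y := by
  unfold wrapForm
  rw [← smul_eq_mul, smul_finsum]
  exact finsum_congr fun k => by simp

theorem wrapForm_smul_right (M : ℕ) (c : ℝ) (x y : V) :
    wrapForm Q g M x (c • y) = c * wrapForm Q g M x y := by
  unfold wrapForm
  rw [← smul_eq_mul, smul_finsum]
  exact finsum_congr fun k => by simp

/-- The isometry property for all powers. -/
theorem iso_zpow (hiso : ∀ x y, Q (g x) (g y) = Q x y) (k : ℤ) (x y : V) :
    Q ((g ^ k) x) ((g ^ k) y) = Q x y := by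
  induction k using Int.induction_on with
  | zero => simp
  | succ n ih => rw [add_comm, zpow_add, zpow_one, LinearEquiv.mul_apply, LinearEquiv.mul_apply,
      hiso, ih]
  | pred n ih =>
    have h1 : ∀ z : V, (g ^ (-(n : ℤ))) z = g ((g ^ (-(n : ℤ) - 1)) z) := fun z => by
      rw [← LinearEquiv.mul_apply, ← zpow_one_add]; congr 2; ring
    rw [h1 x, h1 y, hiso] at ih
    exact ih

theorem iso_shift (hiso : ∀ x y, Q (g x) (g y) = Q x y) (k l : ℤ) (x y : V) :
    Q ((g ^ k) x) ((g ^ l) y) = Q x ((g ^ (l - k)) y) := by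
  rw [← iso_zpow hiso k x ((g ^ (l - k)) y), ← LinearEquiv.mul_apply, ← zpow_add]
  congr 3; ring

theorem inv_zpow {Kap : V →ₗ[ℝ] ℝ} (hK : ∀ x, Kap (g x) = Kap x) (k : ℤ) (x : V) :
    Kap ((g ^ k) x) = Kap x := by
  induction k using Int.induction_on with
  | zero => simp
  | succ n ih => rw [add_comm, zpow_add, zpow_one, LinearEquiv.mul_apply, hK, ih]
  | pred n ih =>
    have h1 : (g ^ (-(n : ℤ))) x = g ((g ^ (-(n : ℤ) - 1)) x) := by
      rw [← LinearEquiv.mul_apply, ← zpow_one_add]; congr 2; ring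
    rw [h1, hK] at ih
    exact ih

theorem wrapForm_symm (hsymm : ∀ x y, Q x y = Q y x) (hiso : ∀ x y, Q (g x) (g y) = Q x y)
    (M : ℕ) (x y : V) : wrapForm Q g M x y = wrapForm Q g M y x := by
  unfold wrapForm
  rw [← finsum_comp_equiv (Equiv.neg ℤ)]
  refine finsum_congr fun k => ?_
  have h := iso_shift (g := g) hiso ((M : ℤ) * k) 0 x y
  rw [zpow_zero, LinearEquiv.coe_one, id_eq, zero_sub] at h
  rw [Equiv.neg_apply, hsymm y, mul_neg, h]

/-- For `M` large the wrapped form is the form itself. -/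
theorem eventually_wrapForm (h : Local Q g) (x y : V) :
    ∀ᶠ M : ℕ in atTop, wrapForm Q g M x y = Q x y := by
  obtain ⟨N, hN⟩ : ∃ N : ℕ, ∀ k : ℤ, Q x ((g ^ k) y) ≠ 0 → k.natAbs < N := by
    obtain ⟨N, hN⟩ := ((h x y).image Int.natAbs).bddAbove
    exact ⟨N + 1, fun k hk => Nat.lt_succ_of_le (hN ⟨k, hk, rfl⟩)⟩
  filter_upwards [eventually_ge_atTop (N + 1)] with M hM
  unfold wrapForm
  rw [finsum_eq_single _ (0 : ℤ)]
  · simp
  · intro k hk
    by_contra hne
    have h1 := hN _ hne
    rw [Int.natAbs_mul, Int.natAbs_natCast] at h1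
    have h2 : 1 ≤ k.natAbs := Int.natAbs_pos.2 hk
    nlinarith

/-- Multiples of `p` occur frequently. -/
theorem exists_large {p : ℕ} (hp : 0 < p) {P : ℕ → Prop} (hP : ∀ᶠ M : ℕ in atTop, P M) :
    ∃ M, 0 < M ∧ p ∣ M ∧ P M := by
  obtain ⟨N, hN⟩ := eventually_atTop.1 hP
  refine ⟨p * (N + 1), by positivity, dvd_mul_right _ _, hN _ ?_⟩
  nlinarith

/-- Cauchy–Schwarz for the (negative semidefinite) wrapped form. -/
theorem wrap_cs (h : Local Q g) (hsymm : ∀ x y, Q x y = Q y x)
    (hiso : ∀ x y, Q (g x) (g y) = Q x y) {M : ℕ} (hM : 0 < M)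
    (hneg : ∀ x, wrapForm Q g M x x ≤ 0) (x y : V) :
    wrapForm Q g M x y ^ 2 ≤ wrapForm Q g M x x * wrapForm Q g M y y := by
  set a := wrapForm Q g M x x
  set b := wrapForm Q g M x y
  set c := wrapForm Q g M y y
  have key : ∀ s t : ℝ, s ^ 2 * a + 2 * s * t * b + t ^ 2 * c ≤ 0 := fun s t => by
    have h1 := hneg (s • x + t • y)
    rw [wrapForm_add_left h hM, wrapForm_add_right h hM, wrapForm_add_right h hM,
      wrapForm_smul_left, wrapForm_smul_left, wrapForm_smul_left, wrapForm_smul_left,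
      wrapForm_smul_right, wrapForm_smul_right, wrapForm_smul_right, wrapForm_smul_right,
      wrapForm_symm hsymm hiso M y x] at h1
    calc s ^ 2 * a + 2 * s * t * b + t ^ 2 * c
        = s * (s * a) + s * (t * b) + (t * (s * b) + t * (t * c)) := by ring
      _ ≤ 0 := h1
  have hc : c ≤ 0 := hneg y
  have ha : a ≤ 0 := hneg x
  rcases eq_or_lt_of_le hc with hc0 | hc0
  · have hb : b = 0 := by
      by_contra hb
      have h1 := key b ((1 - a * b ^ 2) / (2 * b ^ 2))
      rw [hc0] at h1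
      have hb2 : b ^ 2 ≠ 0 := pow_ne_zero 2 hb
      have : b ^ 2 * a + 2 * b * ((1 - a * b ^ 2) / (2 * b ^ 2)) * b = 1 := by
        field_simp; ring
      nlinarith
    rw [hb, hc0]; simp
  · have h1 := key c (-b)
    have h2 : c * (c * a - b ^ 2) ≤ 0 := by nlinarith
    nlinarith

/-- The package data: everything which is assumed about the forms. -/
structure Hyp (Q : LinearMap.BilinForm ℝ V) (g : V ≃ₗ[ℝ] V) (Kap : V →ₗ[ℝ] ℝ) (p : ℕ) : Prop where
  symm : ∀ x y, Q x y = Q y x
  iso : ∀ x y, Q (g x) (g y) = Q x y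
  loc : Local Q g
  kap : ∀ x, Kap (g x) = Kap x
  pos : 0 < p
  neg : ∀ M, 0 < M → p ∣ M → ∀ x, wrapForm Q g M x x ≤ 0
  null : ∀ M, 0 < M → p ∣ M → ∀ x, wrapForm Q g M x x = 0 → Kap x = 0

variable {Kap : V →ₗ[ℝ] ℝ} {p : ℕ}

theorem Hyp.dichotomy (H : Hyp Q g Kap p) {x y : V} (hx : Q x x = -1) (hy : Q y y = -1)
    (hKx : Kap x = -1) (hKy : Kap y = -1) (hint : ∃ z : ℤ, Q x y = z) :
    Q x y = 0 ∨ Q x y = -1 := by
  obtain ⟨M, hM, hpM, h1, h2, h3, h4⟩ := exists_large H.pos
    ((eventually_wrapForm H.loc x x).and ((eventually_wrapForm H.loc x y).and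
      ((eventually_wrapForm H.loc y y).and (eventually_wrapForm H.loc y x))))
  have hcs := wrap_cs H.loc H.symm H.iso hM (H.neg M hM hpM) x y
  rw [h1, h2, h3, hx, hy] at hcs
  obtain ⟨z, hz⟩ := hint
  rw [hz] at hcs ⊢
  have hz2 : z ^ 2 ≤ 1 := by exact_mod_cast (by linarith : (z : ℝ) ^ 2 ≤ 1)
  have hz3 : z ≤ 1 := by nlinarith
  have hz4 : -1 ≤ z := by nlinarith
  interval_cases z
  · right; simp
  · left; simp
  · exfalso
    have h5 : wrapForm Q g M (x + y) (x + y) = 0 := by
      rw [wrapForm_add_left H.loc hM, wrapForm_add_right H.loc hM, wrapForm_add_right H.loc hM,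
        h1, h2, h3, h4, hx, hy, H.symm y x, hz]
      norm_num
    have h6 := H.null M hM hpM _ h5
    rw [map_add, hKx, hKy] at h6
    norm_num at h6

/-- If `Q x y = -1` then `x` and `y` are numerically equal. -/
theorem Hyp.numEq (H : Hyp Q g Kap p) {x y : V} (hx : Q x x = -1) (hy : Q y y = -1)
    (hxy : Q x y = -1) (z : V) : Q x z = Q y z := by
  have hxn : (-1 : ℝ) • y = -y := by simp
  obtain ⟨M, hM, hpM, h1, h2, h3, h4, h5, h6⟩ := exists_large H.pos
    ((eventually_wrapForm H.loc x x).and ((eventually_wrapForm H.loc x y).and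
      ((eventually_wrapForm H.loc y y).and ((eventually_wrapForm H.loc y x).and
        ((eventually_wrapForm H.loc x z).and (eventually_wrapForm H.loc y z))))))
  have h7 : wrapForm Q g M (x + (-1 : ℝ) • y) (x + (-1 : ℝ) • y) = 0 := by
    rw [wrapForm_add_left H.loc hM, wrapForm_add_right H.loc hM, wrapForm_add_right H.loc hM,
      wrapForm_smul_left, wrapForm_smul_left, wrapForm_smul_right, wrapForm_smul_right,
      h1, h2, h3, h4, hx, hy, H.symm y x, hxy]
    norm_num
  have hcs := wrap_cs H.loc H.symm H.iso hM (H.neg M hM hpM) (x + (-1 : ℝ) • y) z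
  rw [h7, zero_mul] at hcs
  have h8 : wrapForm Q g M (x + (-1 : ℝ) • y) z = 0 :=
    pow_eq_zero_iff (two_ne_zero) |>.1 (le_antisymm hcs (sq_nonneg _))
  rw [wrapForm_add_left H.loc hM, wrapForm_smul_left, h5, h6] at h8
  linarith

variable {ι : Type*} {e : ι → V}

/-- The orthonormality at level `M` unwraps. -/
theorem Hyp.unwrap (H : Hyp Q g Kap p) {M : ℕ} (hM : 0 < M)
    (hself : ∀ i, Q (e i) (e i) = -1) (hKe : ∀ i, Kap (e i) = -1)
    (hint : ∀ i j (k : ℤ), ∃ z : ℤ, Q (e i) ((g ^ k) (e j)) = z)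
    (horth : ∀ i j, i ≠ j → wrapForm Q g M (e i) (e j) = 0)
    (horth' : ∀ i, wrapForm Q g M (e i) (e i) = -1) :
    (∀ i j, i ≠ j → ∀ k : ℤ, Q (e i) ((g ^ ((M : ℤ) * k)) (e j)) = 0) ∧
      ∀ i (k : ℤ), k ≠ 0 → Q (e i) ((g ^ ((M : ℤ) * k)) (e i)) = 0 := by
  have hnp : ∀ i j (k : ℤ), Q (e i) ((g ^ k) (e j)) ≤ 0 := fun i j k => by
    have h1 : Q ((g ^ k) (e j)) ((g ^ k) (e j)) = -1 := by rw [iso_zpow H.iso, hself]
    rcases H.dichotomy (hself i) h1 (hKe i) (by rw [inv_zpow H.kap, hKe]) (hint i j k) with h | h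
    · rw [h]
    · rw [h]; norm_num
  have hsum : ∀ i j (s : Finset ℤ), wrapForm Q g M (e i) (e j) ≤
      ∑ k ∈ s, Q (e i) ((g ^ ((M : ℤ) * k)) (e j)) := fun i j s => by
    unfold wrapForm
    rw [finsum_eq_sum_of_support_subset (s := (H.loc.wrap hM (e i) (e j)).toFinset ∪ s)
      _ (by intro k hk; simpa using Or.inl hk)]
    have := Finset.sum_le_sum_of_subset_of_nonneg
      (f := fun k : ℤ => -Q (e i) ((g ^ ((M : ℤ) * k)) (e j)))
      (Finset.subset_union_right (s₁ := (H.loc.wrap hM (e i) (e j)).toFinset) (s₂ := s))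
      (fun k _ _ => by simpa using hnp i j ((M : ℤ) * k))
    simpa using this
  constructor
  · intro i j hij k
    have h1 := hsum i j {k}
    rw [horth i j hij, Finset.sum_singleton] at h1
    exact le_antisymm (hnp i j _) h1
  · intro i k hk
    have h1 := hsum i i {0, k}
    rw [horth' i, Finset.sum_pair hk.symm, mul_zero, zpow_zero, LinearEquiv.coe_one, id_eq,
      hself i] at h1
    exact le_antisymm (hnp i i _) (by linarith)

/-- An orbit of a vector of square `-1` is orthonormal. -/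
theorem Hyp.orbit_self (H : Hyp Q g Kap p) {x : V} (hx : Q x x = -1) (hKx : Kap x = -1)
    (hint : ∀ k : ℤ, ∃ z : ℤ, Q x ((g ^ k) x) = z) {k : ℤ} (hk : k ≠ 0) :
    Q x ((g ^ k) x) = 0 := by
  have hy : Q ((g ^ k) x) ((g ^ k) x) = -1 := by rw [iso_zpow H.iso, hx]
  rcases H.dichotomy hx hy hKx (by rw [inv_zpow H.kap, hKx]) (hint k) with h | h
  · exact h
  · exfalso
    have h1 : ∀ t : ℕ, Q x ((g ^ (k * t)) x) = -1 := fun t => by
      induction t with
      | zero => simpa using hx
      | succ t ih =>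
        rw [H.numEq hx hy h, iso_shift H.iso]
        rw [← ih]; congr 3; push_cast; ring
    have h2 : (Set.range fun t : ℕ => k * (t : ℤ)).Infinite :=
      Set.infinite_range_of_injective fun a b hab => by
        have := mul_left_cancel₀ hk hab
        exact_mod_cast this
    refine h2 ((H.loc x x).subset ?_)
    rintro _ ⟨t, rfl⟩
    have h3 : Q x ((g ^ (k * (t : ℤ))) x) ≠ 0 := by rw [h1 t]; norm_num
    exact h3

/-- **LIFT-T5.**  From one covering `X_M` with an orthonormal family of `n * M` lifted classes to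
`n` orthonormal `γ`-orbits. -/
theorem Hyp.orbits (H : Hyp Q g Kap p) {n M : ℕ} (hM : 0 < M) {e : Fin (n * M) → V}
    (hself : ∀ i, Q (e i) (e i) = -1) (hKe : ∀ i, Kap (e i) = -1)
    (hint : ∀ i j (k : ℤ), ∃ z : ℤ, Q (e i) ((g ^ k) (e j)) = z)
    (horth : ∀ i j, wrapForm Q g M (e i) (e j) = if i = j then -1 else 0) :
    (∀ i j (k : ℤ), Q (e i) ((g ^ ((M : ℤ) * k)) (e j)) = if i = j ∧ k = 0 then -1 else 0) ∧
      ∃ f : Fin n → Fin (n * M), Function.Injective f ∧
        ∀ i j (k : ℤ), Q (e (f i)) ((g ^ k) (e (f j))) = if i = j ∧ k = 0 then -1 else 0 := by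
  have hun := H.unwrap hM hself hKe hint
    (fun i j hij => by rw [horth, if_neg hij]) (fun i => by rw [horth, if_pos rfl])
  have hA : ∀ i j (k : ℤ), Q (e i) ((g ^ ((M : ℤ) * k)) (e j)) =
      if i = j ∧ k = 0 then -1 else 0 := fun i j k => by
    by_cases hij : i = j
    · subst hij
      by_cases hk : k = 0
      · subst hk; simp [hself]
      · rw [hun.2 i k hk, if_neg (fun h => hk h.2)]
    · rw [hun.1 i j hij k, if_neg (fun h => hij h.1)]
  refine ⟨hA, ?_⟩
  -- self intersection of translates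
  have hsq : ∀ j (k : ℤ), Q ((g ^ k) (e j)) ((g ^ k) (e j)) = -1 := fun j k => by
    rw [iso_zpow H.iso, hself]
  -- the relation
  let r : Fin (n * M) → Fin (n * M) → Prop := fun i j => ∃ m : ℤ, Q (e i) ((g ^ m) (e j)) = -1
  have hrefl : ∀ i, r i i := fun i => ⟨0, by simp [hself]⟩
  have hsy : ∀ {i j}, r i j → r j i := fun {i j} ⟨m, hm⟩ => ⟨-m, by
    have h1 := iso_shift H.iso m 0 (e j) (e i)
    rw [zpow_zero, LinearEquiv.coe_one, id_eq, zero_sub] at h1
    rw [← h1, H.symm, hm]⟩
  have htr : ∀ {i j k}, r i j → r j k → r i k := fun {i j k} ⟨m, hm⟩ ⟨l, hl⟩ => ⟨m + l, by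
    rw [H.numEq (hself i) (hsq j m) hm, iso_shift H.iso, add_sub_cancel_left, hl]⟩
  let s : Setoid (Fin (n * M)) := ⟨r, hrefl, hsy, htr⟩
  have : DecidableRel s.r := Classical.decRel _
  have : Fintype (Quotient s) := Quotient.fintype s
  have : NeZero M := ⟨hM.ne'⟩
  have hrep : ∀ j, ∃ m : ℤ, Q (e (Quotient.mk s j).out) ((g ^ m) (e j)) = -1 := fun j =>
    Quotient.exact (Quotient.out_eq (Quotient.mk s j))
  choose mm hmm using hrep
  let F : Fin (n * M) → Quotient s × ZMod M := fun j => (Quotient.mk s j, (mm j : ZMod M))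
  have hF : Function.Injective F := by
    intro j j' hjj
    have h1 : Quotient.mk s j = Quotient.mk s j' := congrArg Prod.fst hjj
    have h2 : ((mm j : ℤ) : ZMod M) = (mm j' : ZMod M) := congrArg Prod.snd hjj
    obtain ⟨k, hk⟩ : (M : ℤ) ∣ mm j' - mm j := (ZMod.intCast_eq_intCast_iff_dvd_sub _ _ _).1 h2
    have h3 := hmm j
    have h4 := hmm j'
    rw [← h1] at h4
    -- `g ^ mm j (e j)` and `g ^ mm j' (e j')` are numerically equal
    have h5 := H.numEq (hself _) (hsq j (mm j)) h3 ((g ^ (mm j')) (e j'))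
    rw [h4, iso_shift H.iso, hk, hA] at h5
    by_contra hne
    rw [if_neg (fun h => hne h.1)] at h5
    norm_num at h5
  have hcard : n * M ≤ Fintype.card (Quotient s) * M := by
    have := Fintype.card_le_of_injective F hF
    rwa [Fintype.card_prod, Fintype.card_fin, ZMod.card] at this
  have hcard' : Fintype.card (Fin n) ≤ Fintype.card (Quotient s) := by
    rw [Fintype.card_fin]; exact Nat.le_of_mul_le_mul_right hcard hM
  obtain ⟨emb⟩ := Function.Embedding.nonempty_of_card_le hcard'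
  have hout : Function.Injective (fun q : Quotient s => q.out) := fun a b hab => by
    have h := congrArg (Quotient.mk s) hab
    simpa only [Quotient.out_eq] using h
  refine ⟨fun i => (emb i).out, hout.comp emb.injective, fun i j k => ?_⟩
  by_cases hij : i = j
  · subst hij
    by_cases hk : k = 0
    · subst hk; simp [hself]
    · rw [if_neg (fun h => hk h.2)]
      exact H.orbit_self (hself _) (hKe _) (fun k => hint _ _ k) hk
  · rw [if_neg (fun h => hij h.1)]
    rcases H.dichotomy (hself (emb i).out) (hsq (emb j).out k) (hKe _)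
      (by rw [inv_zpow H.kap, hKe]) (hint _ _ k) with h | h
    · exact h
    · exfalso
      apply hij
      apply emb.injective
      rw [← Quotient.out_eq (emb i), ← Quotient.out_eq (emb j)]
      exact Quotient.sound ⟨k, h⟩

end Abstract

/-! ### The form with intersection forms of the coverings -/

section Coverings

universe u

variable {V : Type*} [AddCommGroup V] [Module ℝ V]
  {Q : LinearMap.BilinForm ℝ V} {g : V ≃ₗ[ℝ] V} {Kap : V →ₗ[ℝ] ℝ} {p : ℕ}

/-- The hypotheses `Hyp` from negative definite forms `B M` on the spaces `W M`. -/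
theorem Hyp.of_wrap (hsymm : ∀ x y, Q x y = Q y x) (hiso : ∀ x y, Q (g x) (g y) = Q x y)
    (hloc : Local Q g) (hK : ∀ x, Kap (g x) = Kap x) (hp : 0 < p)
    (hwrap : ∀ M, 0 < M → p ∣ M → ∃ (W : Type u) (_ : AddCommGroup W) (_ : Module ℝ W)
      (B : LinearMap.BilinForm ℝ W) (w : V → W) (K : W),
        (∀ x, x ≠ 0 → B x x < 0) ∧ (∀ x, B (w x) (w x) = wrapForm Q g M x x) ∧
          ∀ x, B K (w x) = Kap x) : Hyp Q g Kap p where
  symm := hsymm
  iso := hiso
  loc := hloc
  kap := hK
  pos := hp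
  neg := fun M hM hpM x => by
    obtain ⟨W, _, _, B, w, K, h1, h2, -⟩ := hwrap M hM hpM
    rw [← h2]
    by_cases h : w x = 0
    · simp [h]
    · exact (h1 _ h).le
  null := fun M hM hpM x hx => by
    obtain ⟨W, _, _, B, w, K, h1, h2, h3⟩ := hwrap M hM hpM
    rw [← h2] at hx
    have h : w x = 0 := by
      by_contra h
      exact (h1 _ h).ne hx
    rw [← h3, h, map_zero]

end Coverings

end Vale.Agent.P267.H379
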